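import Vale.Agent.P068.Split

/-! The coarse antichain, built by a recursion of length continuum. -/

open Set Filter

namespace Vale.Agent.P068

/-- the filter of co-null sets. -/
def conull : Filter Om :=
  Filter.comk Null null_empty (fun _ h _ h' => h.mono h') (fun _ h _ h' => h.union h')

instance : conull.NeBot := ⟨fun h => by
  have : (∅ : Set Om) ∈ conull := by rw [h]; exact mem_bot
  rw [conull, mem_comk, compl_empty] at this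
  exact not_null_univ this⟩

/-- an ultrafilter containing all co-null sets. -/
noncomputable def W : Ultrafilter Om := Ultrafilter.of conull

lemma W_le {A B : Set Om} (h : Le A B) (hA : A ∈ W) : B ∈ W := by
  have h1 : (A \ B)ᶜ ∈ conull := by rw [conull, mem_comk, compl_compl]; exact h
  have h2 : (A \ B)ᶜ ∈ W := Ultrafilter.of_le conull h1
  exact mem_of_superset (inter_mem hA h2) fun x ⟨a, b⟩ => by
    by_contra hc; exact b ⟨a, hc⟩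

lemma gen (F : Set (Set Om)) (hF : Cardinal.mk F < Cardinal.continuum) {lo hi : Set Om}
    (h : Le lo hi) (hlo : lo ∉ W) :
    ∃ m, m ∉ W ∧ Le lo m ∧ Le m hi ∧ ∀ A ∈ F, (Le m A → Le hi A) ∧ (Le A m → Le A lo) := by
  obtain ⟨Z, hZ⟩ := exists_split ((fun A => (hi \ lo) \ A) '' F ∪ (fun A => A \ lo) '' F)
    ((Cardinal.mk_union_le _ _).trans_lt (Cardinal.add_lt_of_lt Cardinal.aleph0_le_continuum
      (Cardinal.mk_image_le.trans_lt hF) (Cardinal.mk_image_le.trans_lt hF)))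
  obtain ⟨R, hR, hR'⟩ : ∃ R, R ∉ W ∧ ∀ P ∈ ((fun A => (hi \ lo) \ A) '' F ∪
      (fun A => A \ lo) '' F), ¬ Null P → ¬ Null (P ∩ R) ∧ ¬ Null (P \ R) := by
    by_cases hz : Z ∈ W
    · refine ⟨Zᶜ, Ultrafilter.compl_notMem_iff.2 hz, fun P hP hn => ?_⟩
      rw [sdiff_compl, ← sdiff_eq]
      exact (hZ P hP hn).symm
    · exact ⟨Z, hz, hZ⟩
  refine ⟨lo ∪ (R ∩ hi), ?_, Le.of_subset subset_union_left,
    h.union (Le.of_subset inter_subset_right), fun A hA => ⟨fun h1 => ?_, fun h1 => ?_⟩⟩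
  · rw [Ultrafilter.union_mem_iff]
    rintro (h | h)
    · exact hlo h
    · exact hR (mem_of_superset h inter_subset_left)
  · have h2 : Null ((hi \ lo) \ A) := by
      by_contra hc
      refine (hR' _ (Or.inl ⟨A, hA, rfl⟩) hc).1 (Null.mono h1 ?_)
      rintro x ⟨⟨⟨a, -⟩, b⟩, c⟩
      exact ⟨Or.inr ⟨c, a⟩, b⟩
    refine Null.mono (Null.union h1 h2) ?_
    rintro x ⟨a, b⟩
    by_cases hx : x ∈ lo
    · exact Or.inl ⟨Or.inl hx, b⟩
    · exact Or.inr ⟨⟨a, hx⟩, b⟩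
  · by_contra hc
    refine (hR' _ (Or.inr ⟨A, hA, rfl⟩) hc).2 (Null.mono h1 ?_)
    rintro x ⟨⟨a, b⟩, c⟩
    exact ⟨a, fun h => h.elim b fun h => c h.1⟩

/-- pairs, ordered increasingly in the first and decreasingly in the second coordinate. -/
def PLe (p q : Set Om × Set Om) : Prop := Le p.1 q.1 ∧ Le q.2 p.2

lemma PLe.trans {p q r : Set Om × Set Om} (h : PLe p q) (h' : PLe q r) : PLe p r :=
  ⟨h.1.trans h'.1, h'.2.trans h.2⟩

variable {ι : Type} [LinearOrder ι]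

/-- compatibility of two labelled pairs. -/
def Good (B B' : (Set Om × Set Om) × ι) : Prop :=
  (PLe B.1 B'.1 → B.1 = B'.1) ∧ (Le B'.1.1 B.1.2 → B'.2 < B.2)

lemma core (S : Set ((Set Om × Set Om) × ι)) (hS : Cardinal.mk S < Cardinal.continuum)
    (hsm : ∀ B ∈ S, B.1.2 ∉ W) (hG : ∀ B ∈ S, ∀ B' ∈ S, Good B B')
    {x z : Set Om × Set Om} (hxz : PLe x z) (hx : x.1 ∉ W) (hz : z.2 ∉ W)
    (h1 : ∀ B ∈ S, ¬ PLe B.1 x) (h2 : ∀ B ∈ S, ¬ PLe z B.1) (l : ι)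
    (hl : (z.1 ∈ W ∧ ∀ B ∈ S, B.2 < l) ∨ ∃ B ∈ S, PLe B.1 z ∧ B.2 = l) :
    ∃ p : Set Om × Set Om, p.1 ∉ W ∧ p.2 ∉ W ∧ PLe x p ∧ PLe p z ∧ Good (p, l) (p, l) ∧
      ∀ B ∈ S, Good (p, l) B ∧ Good B (p, l) := by
  have hc : ∀ A : Set Om, Cardinal.mk (insert A ((fun B => B.1.1) '' S ∪ (fun B => B.1.2) '' S) :
      Set (Set Om)) < Cardinal.continuum := fun A =>
    Cardinal.mk_insert_le.trans_lt (Cardinal.add_lt_of_lt Cardinal.aleph0_le_continuum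
      ((Cardinal.mk_union_le _ _).trans_lt (Cardinal.add_lt_of_lt Cardinal.aleph0_le_continuum
      (Cardinal.mk_image_le.trans_lt hS) (Cardinal.mk_image_le.trans_lt hS)))
      (Cardinal.one_lt_aleph0.trans Cardinal.aleph0_lt_continuum))
  obtain ⟨a, a1, a2, a3, a4⟩ := gen _ (hc z.2) hxz.1 hx
  obtain ⟨b, b1, b2, b3, b4⟩ := gen _ (hc a) hxz.2 hz
  have aa : ∀ B ∈ S, (Le a B.1.1 → Le z.1 B.1.1) ∧ (Le B.1.1 a → Le B.1.1 x.1) :=
    fun B hB => a4 _ (Or.inr (Or.inl ⟨B, hB, rfl⟩))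
  have ab : ∀ B ∈ S, Le a B.1.2 → Le z.1 B.1.2 :=
    fun B hB => (a4 _ (Or.inr (Or.inr ⟨B, hB, rfl⟩))).1
  have ba : ∀ B ∈ S, Le B.1.1 b → Le B.1.1 z.2 :=
    fun B hB => (b4 _ (Or.inr (Or.inl ⟨B, hB, rfl⟩))).2
  have bb : ∀ B ∈ S, (Le b B.1.2 → Le x.2 B.1.2) ∧ (Le B.1.2 b → Le B.1.2 z.2) :=
    fun B hB => b4 _ (Or.inr (Or.inr ⟨B, hB, rfl⟩))
  refine ⟨(a, b), a1, b1, ⟨a2, b3⟩, ⟨a3, b2⟩, ⟨fun _ => rfl, fun h => ?_⟩,
    fun B hB => ⟨⟨fun h => ?_, fun h => ?_⟩, fun h => ?_, fun h => ?_⟩⟩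
  · exfalso
    have h3 : Le z.1 z.2 := (a4 _ (Or.inl rfl)).1 ((b4 _ (Or.inl rfl)).2 h)
    rcases hl with ⟨h4, -⟩ | ⟨B, hB, h4, -⟩
    · exact hz (W_le h3 h4)
    · exact lt_irrefl _ ((hG B hB B hB).2 (h4.1.trans (h3.trans h4.2)))
  · exact absurd ⟨(aa B hB).1 h.1, (bb B hB).2 h.2⟩ (h2 B hB)
  · rcases hl with ⟨-, h4⟩ | ⟨B', hB', h4, rfl⟩
    · exact h4 B hB
    · exact (hG B' hB' B hB).2 ((ba B hB h).trans h4.2)
  · exact absurd ⟨(aa B hB).2 h.1, (bb B hB).1 h.2⟩ (h1 B hB)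
  · rcases hl with ⟨h4, -⟩ | ⟨B', hB', h4, rfl⟩
    · exact absurd (W_le (ab B hB h) h4) (hsm B hB)
    · exact (hG B hB B' hB').2 (h4.1.trans (ab B hB h))

/-- `p` meets the requirement `(x, z)`. -/
def Sat (p x z : Set Om × Set Om) : Prop := PLe p x ∨ PLe z p ∨ (PLe x p ∧ PLe p z)

lemma step (S : Set ((Set Om × Set Om) × ι)) (hS : Cardinal.mk S < Cardinal.continuum) (i : ι)
    (hsm : ∀ B ∈ S, B.1.1 ∉ W ∧ B.1.2 ∉ W ∧ B.2 < i) (hG : ∀ B ∈ S, ∀ B' ∈ S, Good B B')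
    {x z : Set Om × Set Om} (hxz : PLe x z) (hx : x.1 ∉ W) (hz : z.2 ∉ W) :
    ∃ B : (Set Om × Set Om) × ι, B.1.1 ∉ W ∧ B.1.2 ∉ W ∧ B.2 ≤ i ∧ Sat B.1 x z ∧ Good B B ∧
      ∀ B' ∈ S, Good B B' ∧ Good B' B := by
  by_cases h0 : ∃ B ∈ S, Sat B.1 x z
  · obtain ⟨B, hB, h⟩ := h0
    exact ⟨B, (hsm B hB).1, (hsm B hB).2.1, (hsm B hB).2.2.le, h, hG B hB B hB,
      fun B' hB' => ⟨hG B hB B' hB', hG B' hB' B hB⟩⟩
  have h1 : ∀ B ∈ S, ¬ PLe B.1 x := fun B hB h => h0 ⟨B, hB, Or.inl h⟩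
  have h2 : ∀ B ∈ S, ¬ PLe z B.1 := fun B hB h => h0 ⟨B, hB, Or.inr (Or.inl h)⟩
  have hsm' : ∀ B ∈ S, B.1.2 ∉ W := fun B hB => (hsm B hB).2.1
  by_cases h3 : z.1 ∈ W
  · obtain ⟨p, a, b, c, d, e, f⟩ := core S hS hsm' hG hxz hx hz h1 h2 i
      (Or.inl ⟨h3, fun B hB => (hsm B hB).2.2⟩)
    exact ⟨(p, i), a, b, le_rfl, Or.inr (Or.inr ⟨c, d⟩), e, f⟩
  by_cases h4 : ∃ B ∈ S, PLe B.1 z
  · obtain ⟨B, hB, h4⟩ := h4
    obtain ⟨p, a, b, c, d, e, f⟩ := core S hS hsm' hG hxz hx hz h1 h2 B.2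
      (Or.inr ⟨B, hB, h4, rfl⟩)
    exact ⟨(p, B.2), a, b, (hsm B hB).2.2.le, Or.inr (Or.inr ⟨c, d⟩), e, f⟩
  · obtain ⟨p, a, b, c, -, e, f⟩ := core S hS hsm' hG (x := z) (z := (univ, z.2))
      ⟨Le.of_subset (subset_univ _), Le.rfl⟩ h3 hz (fun B hB h => h4 ⟨B, hB, h⟩)
      (fun B hB h => (hsm B hB).1 (W_le h.1 univ_mem)) i
      (Or.inl ⟨univ_mem, fun B hB => (hsm B hB).2.2⟩)
    exact ⟨(p, i), a, b, le_rfl, Or.inr (Or.inl c), e, f⟩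

lemma exists_rec {β : Type} [WellFoundedLT ι] [Nonempty β] (K : ι → Set β → β → Prop) :
    ∃ F : ι → β, ∀ i, (∃ b, K i (F '' Iio i) b) → K i (F '' Iio i) (F i) := by
  let G : (i : ι) → ((j : ι) → j < i → β) → β := fun i f =>
    Classical.epsilon (K i (range fun j : Iio i => f j.1 j.2))
  refine ⟨WellFoundedLT.fix G, fun i h => ?_⟩
  have e : (range fun j : Iio i => WellFoundedLT.fix G j.1) = WellFoundedLT.fix G '' Iio i :=
    (image_eq_range _ _).symm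
  have := Classical.epsilon_spec h
  rw [WellFoundedLT.fix_eq]
  simp only [G]
  rw [e]
  exact this

theorem exists_coarse : ∃ S : Set (Set Om × Set Om), (∀ p ∈ S, p.1 ∉ W ∧ p.2 ∉ W) ∧
    (∀ p ∈ S, ∀ q ∈ S, PLe p q → p = q) ∧
    (∀ x z, PLe x z → x.1 ∉ W → z.2 ∉ W → ∃ p ∈ S, Sat p x z) ∧
    ∀ f : ℕ → Set Om × Set Om, (∀ n, f n ∈ S) → ¬ ∀ n, Le (f (n + 1)).1 (f n).2 := by
  let Req := {r : (Set Om × Set Om) × (Set Om × Set Om) // PLe r.1 r.2 ∧ r.1.1 ∉ W ∧ r.2.2 ∉ W}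
  have hne : Nonempty Req := ⟨⟨((∅, ∅), (∅, ∅)), ⟨Le.rfl, Le.rfl⟩, W.empty_notMem, W.empty_notMem⟩⟩
  have hcard : Cardinal.mk Req ≤ Cardinal.mk (Cardinal.continuum.{0}).ord.ToType := by
    rw [Cardinal.mk_toType, Cardinal.card_ord]
    refine (Cardinal.mk_subtype_le _).trans ?_
    have : Cardinal.mk (Set Om) ≤ Cardinal.continuum := by
      rw [Cardinal.mk_set, ← Cardinal.two_power_aleph0]
      exact Cardinal.power_le_power_left two_ne_zero Cardinal.mk_le_aleph0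
    simp only [Cardinal.mk_prod, Cardinal.lift_id]
    rw [← Cardinal.continuum_mul_self]
    gcongr <;> (rw [← Cardinal.continuum_mul_self]; gcongr)
  obtain ⟨g⟩ := (Cardinal.le_def _ _).1 hcard
  let e := Function.invFun g
  have he : Function.Surjective e := Function.invFun_surjective g.injective
  haveI : Nonempty (Cardinal.continuum.{0}).ord.ToType := ⟨g (Classical.choice hne)⟩
  obtain ⟨F, hF⟩ := exists_rec (ι := (Cardinal.continuum.{0}).ord.ToType)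
    (fun i (S : Set ((Set Om × Set Om) × (Cardinal.continuum.{0}).ord.ToType)) B =>
      B.1.1 ∉ W ∧ B.1.2 ∉ W ∧ B.2 ≤ i ∧ Sat B.1 (e i).1.1 (e i).1.2 ∧ Good B B ∧
      ∀ B' ∈ S, Good B B' ∧ Good B' B)
  have good : ∀ s : Set (Cardinal.continuum.{0}).ord.ToType,
      (∀ i ∈ s, Good (F i) (F i) ∧ ∀ B' ∈ F '' Iio i, Good (F i) B' ∧ Good B' (F i)) →
      ∀ i ∈ s, ∀ j ∈ s, Good (F i) (F j) := fun s hs i hi j hj => by
    rcases lt_trichotomy i j with h | rfl | h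
    · exact ((hs j hj).2 _ ⟨i, h, rfl⟩).2
    · exact (hs i hi).1
    · exact ((hs i hi).2 _ ⟨j, h, rfl⟩).1
  have all : ∀ i, (F i).1.1 ∉ W ∧ (F i).1.2 ∉ W ∧ (F i).2 ≤ i ∧
      Sat (F i).1 (e i).1.1 (e i).1.2 ∧ Good (F i) (F i) ∧
      ∀ B' ∈ F '' Iio i, Good (F i) B' ∧ Good B' (F i) := by
    intro i
    induction i using WellFoundedLT.induction with
    | ind i ih =>
      refine hF i (step _ (Cardinal.mk_image_le.trans_lt (Cardinal.mk_Iio_toType_ord_lt i)) i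
        ?_ ?_ (e i).2.1 (e i).2.2.1 (e i).2.2.2)
      · rintro _ ⟨j, hj, rfl⟩
        exact ⟨(ih j hj).1, (ih j hj).2.1, (ih j hj).2.2.1.trans_lt hj⟩
      · rintro _ ⟨j, hj, rfl⟩ _ ⟨k, hk, rfl⟩
        exact good (Iio i) (fun j hj => (ih j hj).2.2.2.2) j hj k hk
  have G := good univ fun i _ => (all i).2.2.2.2
  refine ⟨range fun i => (F i).1, ?_, ?_, ?_, ?_⟩
  · rintro _ ⟨i, rfl⟩; exact ⟨(all i).1, (all i).2.1⟩
  · rintro _ ⟨i, rfl⟩ _ ⟨j, rfl⟩; exact (G i trivial j trivial).1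
  · intro x z h1 h2 h3
    obtain ⟨i, hi⟩ := he ⟨(x, z), h1, h2, h3⟩
    refine ⟨_, ⟨i, rfl⟩, ?_⟩
    have := (all i).2.2.2.1
    rwa [hi] at this
  · intro f hf h
    choose u hu using hf
    refine not_strictAnti_of_wellFoundedLT (fun n => (F (u n)).2) (strictAnti_nat_of_succ_lt ?_)
    intro n
    refine (G (u n) trivial (u (n + 1)) trivial).2 ?_
    have := h n
    rwa [← hu n, ← hu (n + 1)] at this

end Vale.Agent.P068
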