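import Mathlib

namespace Vale.Agent.P068

open Set Matroid

/-- `M.X := (M* restricted to X)*`, the contraction of `M` onto `X`. -/
def contractOnto {α : Type*} (M : Matroid α) (X : Set α) : Matroid α := (M✶ ↾ X)✶

/-- The family `M` of matroids on `E` has a packing/covering partition. -/
def HasPackingCovering {α Θ : Type*} (E : Set α) (M : Θ → Matroid α) : Prop :=
  ∃ (P C : Set α) (S I : Θ → Set α), Disjoint P C ∧ P ∪ C = E ∧
    (∀ i, S i ⊆ P) ∧ (∀ i, I i ⊆ C) ∧ (∀ i j, i ≠ j → Disjoint (S i) (S j)) ∧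
    (∀ i, ((M i) ↾ P).closure (S i) = P) ∧
    (∀ i, (contractOnto (M i) C).Indep (I i)) ∧ ⋃ i, I i = C

/-- The pair `(M, N)` of matroids on `E` satisfies intersection. -/
def SatisfiesIntersection {α : Type*} (E : Set α) (M N : Matroid α) : Prop :=
  ∃ J JM JN : Set α, M.Indep J ∧ N.Indep J ∧ Disjoint JM JN ∧ JM ∪ JN = J ∧
    M.closure JM ∪ N.closure JN = E

end Vale.Agent.P068
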