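import Vale.Agent.P068.Local

/-! From a coarse antichain to a uniform matroid. -/

open Set Filter

namespace Vale.Agent.P068

variable {E : Type} [Blocks E]

lemma exists_ind_between {y I Y : Set E} (hIY : I ⊆ Y) (h1 : Le y Y) (h2 : Le Y y)
    (h3 : ¬ Le y I) : ∃ I', I ⊆ I' ∧ I' ⊆ Y ∧ Le y I' ∧ ind y I' := by
  classical
  set W := (Y \ I) ∩ y with hW
  have hWn : ¬ Null W := fun h => h3 ((h.union h1).mono fun e ⟨a, b⟩ => by
    by_cases he : e ∈ Y
    · exact Or.inl ⟨⟨he, b⟩, a⟩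
    · exact Or.inr ⟨a, he⟩)
  unfold Null at hWn
  push Not at hWn
  obtain ⟨m0, hm0⟩ := hWn
  have hS : ∀ k, ∃ j, k < j ∧ 2 ^ j < m0 * cnt W j := fun k => by
    obtain ⟨j, h, h'⟩ := frequently_atTop.1 hm0 (k + 1)
    exact ⟨j, h, h'⟩
  let K : ℕ → Finset ℕ := fun j =>
    (Finset.range j).filter fun k => ∀ i, k < i → i < j → ¬ 2 ^ i < m0 * cnt W i
  let r : ℕ → ℕ := fun j => (K j).sup fun k => cum (Y \ y) k * 2 ^ (j - k)
  have claimA : ∀ m, ∃ s, ∀ j, s < j → m * r j ≤ 2 ^ j := by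
    intro m
    obtain ⟨k1, hk1⟩ := eventually_atTop.1 (h2.cum m)
    obtain ⟨s, hs1, hs2⟩ := hS k1
    refine ⟨s, fun j hj => ?_⟩
    rcases (K j).eq_empty_or_nonempty with he | hne
    · simp [r, he]
    obtain ⟨k, hk, hk'⟩ := Finset.exists_mem_eq_sup (K j) hne
      (fun k => cum (Y \ y) k * 2 ^ (j - k))
    simp only [r, hk']
    simp only [K, Finset.mem_filter, Finset.mem_range] at hk
    have hks : s ≤ k := by
      by_contra hc
      exact hk.2 s (by omega) hj hs2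
    have a1 := Nat.mul_le_mul_right (2 ^ (j - k)) (hk1 k (by omega))
    rw [← pow_add, show k + (j - k) = j by omega] at a1
    rw [← mul_assoc]; exact a1
  have hR : ∀ j, ∃ R ⊆ W ∩ {e | Blocks.blk e = j}, R.ncard = min (r j) (cnt W j) := fun j =>
    exists_subset_card_eq (min_le_right _ _)
  choose R hR1 hR2 using hR
  have hRc : ∀ j, cnt (⋃ i, R i) j = min (r j) (cnt W j) := fun j => by
    rw [← hR2 j]; unfold cnt; congr 1; ext e
    simp only [mem_inter_iff, mem_iUnion]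
    constructor
    · rintro ⟨⟨i, hi⟩, he⟩
      have : Blocks.blk e = i := (hR1 i hi).2
      have h' : Blocks.blk e = j := he
      rw [← h', this]; exact hi
    · intro h; exact ⟨⟨j, h⟩, (hR1 j h).2⟩
  have hRW : (⋃ i, R i) ⊆ W := iUnion_subset fun i => (hR1 i).trans inter_subset_left
  have hRn : Null (⋃ i, R i) := fun m => by
    obtain ⟨s, hs⟩ := claimA m
    filter_upwards [eventually_gt_atTop s] with j hj
    rw [hRc]
    exact le_trans (Nat.mul_le_mul_left _ (min_le_left _ _)) (hs j hj)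
  refine ⟨Y \ ⋃ i, R i, fun e he => ⟨hIY he, fun h => (hRW h).1.2 he⟩, sdiff_subset, ?_, ?_⟩
  · refine Null.mono (Null.union h1 hRn) ?_
    rintro e ⟨a, b⟩
    by_cases he : e ∈ Y
    · right; by_contra hc; exact b ⟨he, hc⟩
    · exact Or.inl ⟨a, he⟩
  obtain ⟨s, hs⟩ := claimA m0
  filter_upwards [eventually_ge_atTop s] with k hk
  have hj := Nat.find_spec (hS k)
  have hjm := fun i => Nat.find_min (hS k) (m := i)
  set j := Nat.find (hS k)
  refine ⟨j, hj.1, ?_⟩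
  have hkK : k ∈ K j := by
    simp only [K, Finset.mem_filter, Finset.mem_range]
    exact ⟨hj.1, fun i a b c => hjm i b ⟨a, c⟩⟩
  have a1 : cum (Y \ y) k * 2 ^ (j - k) ≤ r j :=
    Finset.le_sup (f := fun k => cum (Y \ y) k * 2 ^ (j - k)) hkK
  have a2 : r j ≤ cnt W j := by
    have := hs j (by omega)
    exact (Nat.lt_of_mul_lt_mul_left (a := m0) (by omega)).le
  have a3 : r j ≤ cnt (y \ (Y \ ⋃ i, R i)) j := by
    have hsub : (⋃ i, R i) ⊆ y \ (Y \ ⋃ i, R i) := fun e he => ⟨(hRW he).2, fun h => h.2 he⟩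
    refine le_trans ?_ (cnt_mono hsub j)
    rw [hRc, min_eq_left a2]
  have a4 : cum (Y \ ⋃ i, R i) k ≤ cum y k + cum (Y \ y) k := by
    refine le_trans (cum_mono (B := y ∪ (Y \ y)) (fun e he => ?_) k) (cum_union_le _ _ k)
    by_cases h : e ∈ y
    · exact Or.inl h
    · exact Or.inr ⟨he.1, h⟩
  have a5 := Nat.mul_le_mul_right (2 ^ k) (a1.trans a3)
  rw [mul_assoc, ← pow_add, show j - k + k = j by have := hj.1; omega] at a5
  have a6 := Nat.mul_le_mul_right (2 ^ j) a4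
  nlinarith

/-- The two predicates describing a uniform matroid. -/
structure Unif (α : Type) where
  Ind : Set α → Prop
  Spn : Set α → Prop
  ind_mono : ∀ {X Y}, Ind Y → X ⊆ Y → Ind X
  spn_mono : ∀ {X Y}, Spn X → X ⊆ Y → Spn Y
  s1 : ∀ {X} (e : α), ¬ Spn X → Ind (insert e X)
  s2 : ∀ {X} {e : α}, e ∉ X → Spn X → ¬ Ind (insert e X)
  ivp : ∀ {I X}, I ⊆ X → Ind I → Spn X → ∃ B, I ⊆ B ∧ B ⊆ X ∧ Ind B ∧ Spn B
  total : ∀ X, Ind X ∨ Spn X
  ind_empty : Ind ∅
  spn_univ : Spn univ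

theorem exists_unif (C : Set (Set E)) (anti : ∀ y ∈ C, ∀ y' ∈ C, Le y y' → y = y')
    (civp : ∀ X Z : Set E, X ⊆ Z → ∃ y ∈ C, Le y X ∨ Le Z y ∨ (Le X y ∧ Le y Z)) :
    ∃ U : Unif E, (∀ X, U.Ind X → ∃ y ∈ C, Le X y) ∧ (∀ X, U.Spn X → ∃ y ∈ C, Le y X) := by
  have tot : ∀ X, (∃ y ∈ C, Le X y ∧ (Le y X → ind y X)) ∨
      (∃ y ∈ C, Le y X ∧ (Le X y → spn y X)) := fun X => by
    obtain ⟨y, hy, h⟩ := civp X X subset_rfl
    by_cases h1 : Le X y
    · by_cases h2 : Le y X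
      · rcases ind_or_spn y X with h3 | h3
        · exact Or.inl ⟨y, hy, h1, fun _ => h3⟩
        · exact Or.inr ⟨y, hy, h2, fun _ => h3⟩
      · exact Or.inl ⟨y, hy, h1, fun h => absurd h h2⟩
    · exact Or.inr ⟨y, hy, by tauto, fun h => absurd h h1⟩
  refine ⟨⟨fun X => ∃ y ∈ C, Le X y ∧ (Le y X → ind y X),
    fun X => ∃ y ∈ C, Le y X ∧ (Le X y → spn y X), ?_, ?_, ?_, ?_, ?_, tot, ?_, ?_⟩,
    fun X ⟨y, a, b, _⟩ => ⟨y, a, b⟩, fun X ⟨y, a, b, _⟩ => ⟨y, a, b⟩⟩
  · rintro X Y ⟨y, hy, h1, h2⟩ h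
    exact ⟨y, hy, (Le.of_subset h).trans h1,
      fun h' => (h2 (h'.trans (Le.of_subset h))).mono h⟩
  · rintro X Y ⟨y, hy, h1, h2⟩ h
    exact ⟨y, hy, h1.trans (Le.of_subset h),
      fun h' => (h2 ((Le.of_subset h).trans h')).mono h⟩
  · intro X e h
    obtain ⟨y, hy, h1, -⟩ := (tot X).resolve_right h
    refine ⟨y, hy, (le_insert_left X e).trans h1, fun h' => ind_insert e fun hs => ?_⟩
    exact h ⟨y, hy, h'.trans (le_insert_left X e), fun _ => hs⟩
  · rintro X e he ⟨y, hy, h1, h2⟩ ⟨y', hy', h3, h4⟩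
    have hX : Le X (insert e X) := Le.of_subset (subset_insert _ _)
    obtain rfl := anti y hy y' hy' (h1.trans (hX.trans h3))
    exact not_ind_insert he (h2 (hX.trans h3)) (h4 (h1.trans hX))
  · rintro I X hIX ⟨y1, hy1, h1, h2⟩ ⟨y2, hy2, h3, h4⟩
    have hIX' : Le I X := Le.of_subset hIX
    obtain ⟨y, hy, h5, h6⟩ : ∃ y ∈ C, Le I y ∧ Le y X := by
      obtain ⟨y, hy, h | h | h⟩ := civp I X hIX
      · obtain rfl := anti y hy y1 hy1 (h.trans h1)
        exact ⟨y, hy, h1, h.trans hIX'⟩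
      · obtain rfl := anti y2 hy2 y hy (h3.trans h)
        exact ⟨y2, hy, hIX'.trans h, h3⟩
      · exact ⟨y, hy, h⟩
    have hI : I ⊆ (y ∪ I) ∩ X := fun e he => ⟨Or.inr he, hIX he⟩
    have hY1 : Le y ((y ∪ I) ∩ X) := (Le.of_subset subset_union_left).inter h6
    have hY2 : Le ((y ∪ I) ∩ X) y := (Le.of_subset inter_subset_left).trans (Le.rfl.union h5)
    have fin : ∀ I' X', I ⊆ I' → I' ⊆ X' → X' ⊆ X → Le y I' → ind y I' → spn y X' →
        ∃ B, I ⊆ B ∧ B ⊆ X ∧ (∃ y ∈ C, Le B y ∧ (Le y B → ind y B)) ∧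
          ∃ y ∈ C, Le y B ∧ (Le B y → spn y B) := by
      intro I' X' a b c d e f
      obtain ⟨B, p, q, r, s⟩ := loc_ivp d b e f
      have hB : Le y B := d.trans (Le.of_subset p)
      exact ⟨B, a.trans p, q.trans c, ⟨y, hy, le_of_ind r hB, fun _ => r⟩, y, hy, hB, fun _ => s⟩
    rcases ind_or_spn y ((y ∪ I) ∩ X) with h | h
    · refine fin _ X hI inter_subset_right subset_rfl hY1 h ?_
      by_cases hX : Le X y
      · obtain rfl := anti y2 hy2 y hy (h3.trans hX)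
        exact h4 hX
      · exact spn_of_not_le h6 hX
    · by_cases hyI : Le y I
      · obtain rfl := anti y hy y1 hy1 (hyI.trans h1)
        exact fin I _ subset_rfl hI inter_subset_right hyI (h2 hyI) h
      · obtain ⟨I', a, b, c, d⟩ := exists_ind_between hI hY1 hY2 hyI
        exact fin I' _ a b inter_subset_right c d h
  · obtain ⟨y, hy, -⟩ := civp ∅ ∅ subset_rfl
    exact ⟨y, hy, Le.of_subset (empty_subset _), fun _ => ind_empty y⟩
  · obtain ⟨y, hy, -⟩ := civp ∅ ∅ subset_rfl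
    exact ⟨y, hy, Le.of_subset (subset_univ _), fun _ => spn_univ y⟩

/-- The matroid given by a `Unif`. -/
def Unif.matroid {α : Type} (U : Unif α) : Matroid α :=
  IndepMatroid.matroid
  { E := univ
    Indep := U.Ind
    indep_empty := U.ind_empty
    indep_subset := fun _ _ h h' => U.ind_mono h h'
    indep_aug := fun I B hI hIm hB => by
      have hBs : U.Spn B := by
        by_contra hc
        by_cases hu : B = univ
        · exact hc (hu ▸ U.spn_univ)
        obtain ⟨e, he⟩ := (ne_univ_iff_exists_notMem B).1 hu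
        exact he (hB.2 (U.s1 e hc) (subset_insert _ _) (mem_insert _ _))
      have hIs : ¬ U.Spn I := fun hs => hIm ⟨hI, fun J hJ hIJ e he => by
        by_contra hc
        exact U.s2 hc hs (U.ind_mono hJ (insert_subset he hIJ))⟩
      obtain ⟨e, he, he'⟩ := not_subset.1 fun h : B ⊆ I => hIs (U.spn_mono hBs h)
      exact ⟨e, ⟨he, he'⟩, U.s1 e hIs⟩
    indep_maximal := fun X _ I hI hIX => by
      rcases U.total X with h | h
      · exact ⟨X, hIX, ⟨h, subset_rfl⟩, fun J hJ _ => hJ.2⟩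
      · obtain ⟨B, a, b, c, d⟩ := U.ivp hIX hI h
        refine ⟨B, a, ⟨c, b⟩, fun J hJ hBJ e he => ?_⟩
        by_contra hc
        exact U.s2 hc d (U.ind_mono hJ.1 (insert_subset he hBJ))
    subset_ground := fun _ _ => subset_univ _ }

end Vale.Agent.P068
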