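import Vale.Agent.P068.Null

/-! The explicit local structure inside a coset of the density-zero ideal. -/

open Set Filter

namespace Vale.Agent.P068

variable {E : Type} [Blocks E]

/-- the test at level `k` with shift `c`, relative to the reference set `y`. -/
def T (y Y : Set E) (c k : ℕ) : Prop :=
  ∃ j, k < j ∧ (cum Y k + c) * 2 ^ j ≤ cum y k * 2 ^ j + cnt (y \ Y) j * 2 ^ k

def ind (y Y : Set E) : Prop := ∀ᶠ k in atTop, T y Y 0 k

def spn (y Y : Set E) : Prop := ∃ᶠ k in atTop, ¬ T y Y 1 k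

lemma T.mono {y Y Y' : Set E} {c c' k : ℕ} (h : T y Y c k) (hY : Y' ⊆ Y) (hc : c' ≤ c) :
    T y Y' c' k := by
  obtain ⟨j, hj, h⟩ := h
  refine ⟨j, hj, ?_⟩
  have h1 := cum_mono hY k
  have h2 : cnt (y \ Y) j ≤ cnt (y \ Y') j := cnt_mono (sdiff_subset_sdiff_right hY) j
  calc _ ≤ (cum Y k + c) * 2 ^ j := Nat.mul_le_mul_right _ (by omega)
    _ ≤ _ := h
    _ ≤ _ := Nat.add_le_add_left (Nat.mul_le_mul_right _ h2) _

lemma cnt_sdiff_insert {y Y : Set E} {e : E} {j : ℕ} (h : Blocks.blk e ≠ j) :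
    cnt (y \ insert e Y) j = cnt (y \ Y) j :=
  cnt_congr fun x hx => by
    have : x ≠ e := fun h' => h (h' ▸ hx)
    simp [this]

lemma T_insert {y Y : Set E} {e : E} (he : e ∉ Y) {c k : ℕ} (hk : Blocks.blk e ≤ k) :
    T y (insert e Y) c k ↔ T y Y (c + 1) k := by
  unfold T
  refine exists_congr fun j => and_congr_right fun hj => ?_
  rw [cum_insert he hk, cnt_sdiff_insert (by omega)]
  rw [show cum Y k + 1 + c = cum Y k + (c + 1) by ring]

lemma T_lip {y Y : Set E} {e : E} (he : e ∉ Y) {k : ℕ} (h : T y Y 1 k) :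
    T y (insert e Y) 0 k := by
  by_cases hk : Blocks.blk e ≤ k
  · exact (T_insert he hk).2 h
  obtain ⟨j, hj, h⟩ := h
  refine ⟨j, hj, ?_⟩
  have h1 : cum (insert e Y) k = cum Y k := cum_congr fun x hx => by
    have : x ≠ e := fun h' => hk (h' ▸ hx)
    simp [this]
  have h2 : cnt (y \ Y) j ≤ cnt (y \ insert e Y) j + 1 := by
    refine le_trans (cnt_mono (B := (y \ insert e Y) ∪ {e}) ?_ j) ?_
    · rintro x ⟨a, b⟩
      by_cases hx : x = e
      · exact Or.inr hx
      · exact Or.inl ⟨a, by simp [hx, b]⟩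
    · exact (cnt_union_le _ _ j).trans (Nat.add_le_add_left (cnt_singleton_le e j) _)
  have h3 : 2 ^ k ≤ 2 ^ j := Nat.pow_le_pow_right (by norm_num) hj.le
  have h4 := Nat.mul_le_mul_right (2 ^ k) h2
  rw [h1]
  nlinarith

lemma ind.mono {y Y Y' : Set E} (h : ind y Y) (hY : Y' ⊆ Y) : ind y Y' :=
  Eventually.mono h fun _ hk => hk.mono hY le_rfl

lemma spn.mono {y Y Y' : Set E} (h : spn y Y) (hY : Y ⊆ Y') : spn y Y' :=
  Frequently.mono h fun _ hk hk' => hk (hk'.mono hY le_rfl)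

lemma ind_or_spn (y Y : Set E) : ind y Y ∨ spn y Y := by
  by_cases h : spn y Y
  · exact Or.inr h
  · left
    unfold spn at h
    rw [not_frequently] at h
    exact h.mono fun k hk => (not_not.1 hk).mono subset_rfl (by norm_num)

lemma ind_insert {y Y : Set E} (e : E) (h : ¬ spn y Y) : ind y (insert e Y) := by
  by_cases he : e ∈ Y
  · rw [insert_eq_of_mem he]; exact (ind_or_spn y Y).resolve_right h
  unfold spn at h
  rw [not_frequently] at h
  exact h.mono fun k hk => T_lip he (not_not.1 hk)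

lemma not_ind_insert {y Y : Set E} {e : E} (he : e ∉ Y) (h : spn y Y) :
    ¬ ind y (insert e Y) := fun h' => by
  obtain ⟨k, h1, h2, h3⟩ := (h.and_eventually (h'.and (eventually_ge_atTop (Blocks.blk e)))).exists
  exact h1 ((T_insert he h3).1 h2)

lemma ind_empty (y : Set E) : ind y ∅ :=
  Eventually.of_forall fun k => ⟨k + 1, by omega, by simp [cum]⟩

lemma spn_univ (y : Set E) : spn y univ :=
  Frequently.of_forall fun k ⟨j, _, h⟩ => by
    have h1 : cum y k ≤ cum (univ : Set E) k := cum_mono (subset_univ _) k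
    have h2 : cnt (y \ univ) j = 0 := by simp [cnt]
    have h3 : 0 < 2 ^ j := by positivity
    rw [h2] at h
    nlinarith

lemma le_of_ind {y B : Set E} (h : ind y B) (hy : Le y B) : Le B y := fun m => by
  obtain ⟨k0, hk0⟩ := eventually_atTop.1 (hy (2 * m))
  filter_upwards [h, hy.cum (2 * m), eventually_ge_atTop k0] with k ⟨j, hj, h1⟩ h2 h3
  have h4 := hk0 j (by omega)
  have h5 := cum_split B y k
  have h6 := cum_split y B k
  rw [inter_comm] at h6
  have h7 := cnt_le_cum (B \ y) k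
  have h8 : 0 < 2 ^ j := by positivity
  have h9 : cum (B \ y) k * 2 ^ j ≤ cum (y \ B) k * 2 ^ j + cnt (y \ B) j * 2 ^ k := by
    rw [h5, h6] at h1; nlinarith
  have h10 : (2 * m * cum (B \ y) k) * 2 ^ j ≤ (2 ^ k + 2 ^ k) * 2 ^ j := by
    have a1 := Nat.mul_le_mul_left (2 * m) h9
    have a2 := Nat.mul_le_mul_right (2 ^ j) h2
    have a3 := Nat.mul_le_mul_right (2 ^ k) h4
    nlinarith
  have h11 := Nat.le_of_mul_le_mul_right h10 h8
  have h12 := Nat.mul_le_mul_left m h7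
  nlinarith

lemma spn_of_not_le {y X : Set E} (hy : Le y X) (h : ¬ Le X y) : spn y X :=
  (ind_or_spn y X).resolve_left fun h' => h (le_of_ind h' hy)

/-- finite interpolation. -/
lemma fin_ivp {y : Set E} (D : Set E) (hD : D.Finite) :
    ∀ I : Set E, ind y I → spn y (I ∪ D) → ∃ B, I ⊆ B ∧ B ⊆ I ∪ D ∧ ind y B ∧ spn y B := by
  induction D, hD using Set.Finite.induction_on with
  | empty => intro I h1 h2; exact ⟨I, subset_rfl, by simp, h1, by simpa using h2⟩
  | @insert e D _ _ ih =>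
    intro I h1 h2
    by_cases hs : spn y I
    · exact ⟨I, subset_rfl, subset_union_left, h1, hs⟩
    · have e1 : insert e I ∪ D = I ∪ insert e D := by
        rw [insert_union, union_insert]
      obtain ⟨B, a, b, c⟩ := ih (insert e I) (ind_insert e hs) (e1 ▸ h2)
      exact ⟨B, (subset_insert _ _).trans a, e1 ▸ b, c⟩

lemma chain_agree {c : Set (Set E)} (hc : IsChain (· ⊆ ·) c) (hne : c.Nonempty) (D : Set E)
    (hD : D.Finite) : ∃ Y ∈ c, ∀ e ∈ D, (e ∈ ⋃₀ c → e ∈ Y) := by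
  induction D, hD using Set.Finite.induction_on with
  | empty => obtain ⟨Y, hY⟩ := hne; exact ⟨Y, hY, by simp⟩
  | @insert e D _ _ ih =>
    obtain ⟨Y, hY, h⟩ := ih
    by_cases he : e ∈ ⋃₀ c
    · obtain ⟨Z, hZ, heZ⟩ := he
      rcases hc.total hY hZ with h' | h'
      · refine ⟨Z, hZ, ?_⟩
        rintro x (rfl | hx) hx'
        · exact heZ
        · exact h' (h x hx hx')
      · refine ⟨Y, hY, ?_⟩
        rintro x (rfl | hx) hx'
        · exact h' heZ
        · exact h x hx hx'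
    · refine ⟨Y, hY, ?_⟩
      rintro x (rfl | hx) hx'
      · exact absurd hx' he
      · exact h x hx hx'

lemma T_sUnion {y I : Set E} (hy : Le y I) {c : Set (Set E)} (hc : IsChain (· ⊆ ·) c)
    (hne : c.Nonempty) (hI : ∀ Y ∈ c, I ⊆ Y) {k : ℕ} (h : ∀ Y ∈ c, T y Y 0 k) :
    T y (⋃₀ c) 0 k := by
  by_cases h0 : cum (⋃₀ c) k ≤ cum y k
  · exact ⟨k + 1, by omega, le_trans (Nat.mul_le_mul_right _ h0) (Nat.le_add_right _ _)⟩
  obtain ⟨J, hJ⟩ := eventually_atTop.1 (hy (2 * 2 ^ k))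
  obtain ⟨Y, hY, hag⟩ := chain_agree hc hne _ (fin_le (E := E) (max k J))
  have hag' : ∀ e, Blocks.blk e ≤ max k J → (e ∈ ⋃₀ c ↔ e ∈ Y) :=
    fun e he => ⟨hag e he, fun h => ⟨Y, hY, h⟩⟩
  have h1 : cum (⋃₀ c) k = cum Y k := cum_congr fun e he => hag' e (he.trans (le_max_left _ _))
  obtain ⟨j, hj, h2⟩ := h Y hY
  by_cases hjJ : J ≤ j
  · exfalso
    have h3 := hJ j hjJ
    have h4 : cnt (y \ Y) j ≤ cnt (y \ I) j := cnt_mono (sdiff_subset_sdiff_right (hI Y hY)) j
    have h5 := Nat.mul_le_mul_right (2 ^ k) h4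
    have h6 : (cum y k + 1) * 2 ^ j ≤ (cum Y k + 0) * 2 ^ j := Nat.mul_le_mul_right _ (by omega)
    have h8 : 0 < 2 ^ j := by positivity
    nlinarith
  · refine ⟨j, hj, ?_⟩
    rw [h1, cnt_congr (B := y \ Y) fun e he => ?_]
    · exact h2
    · have := hag' e (by omega)
      simp only [Set.mem_sdiff, this]

/-- the local intermediate value property. -/
lemma loc_ivp {y I X : Set E} (hy : Le y I) (hIX : I ⊆ X) (hI : ind y I) (hX : spn y X) :
    ∃ B, I ⊆ B ∧ B ⊆ X ∧ ind y B ∧ spn y B := by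
  obtain ⟨k0, hk0⟩ := eventually_atTop.1 hI
  obtain ⟨B, hIB, hB⟩ := zorn_subset_nonempty
    {Y | I ⊆ Y ∧ Y ⊆ X ∧ ∀ k, k0 ≤ k → T y Y 0 k} (fun c hc hch hne =>
      ⟨⋃₀ c, ⟨by obtain ⟨Y, hY⟩ := hne; exact (hc hY).1.trans (subset_sUnion_of_mem hY),
        sUnion_subset fun Y hY => (hc hY).2.1,
        fun k hk => T_sUnion hy hch hne (fun Y hY => (hc hY).1) fun Y hY => (hc hY).2.2 k hk⟩,
        fun Y hY => subset_sUnion_of_mem hY⟩) I ⟨subset_rfl, hIX, hk0⟩
  obtain ⟨-, hBX, hBT⟩ := hB.prop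
  have hBi : ind y B := eventually_atTop.2 ⟨k0, hBT⟩
  by_cases hs : spn y B
  · exact ⟨B, hIB, hBX, hBi, hs⟩
  have hfin : (X \ B).Finite := by
    unfold spn at hs
    rw [not_frequently] at hs
    obtain ⟨k1, hk1⟩ := eventually_atTop.1 hs
    have hw : ∀ k, ∃ j, k0 ≤ k → (k < j ∧
        (cum B k + 0) * 2 ^ j ≤ cum y k * 2 ^ j + cnt (y \ B) j * 2 ^ k) := fun k => by
      by_cases hk : k0 ≤ k
      · obtain ⟨j, hj⟩ := hBT k hk; exact ⟨j, fun _ => hj⟩
      · exact ⟨0, fun h => absurd h hk⟩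
    choose w hw using hw
    refine ((fin_le (E := E) k1).union (Set.Finite.biUnion (Set.finite_Iio k1)
      fun k _ => Blocks.fin (E := E) (w k))).subset ?_
    rintro e ⟨heX, heB⟩
    by_contra hcon
    simp only [mem_union, mem_setOf_eq, mem_iUnion, mem_Iio, not_or, not_exists] at hcon
    refine heB (hB.2 (y := insert e B) ⟨hIB.trans (subset_insert _ _),
      insert_subset heX hBX, fun k hk => ?_⟩ (subset_insert _ _) (mem_insert _ _))
    by_cases hkk : k1 ≤ k
    · exact T_lip heB (not_not.1 (hk1 k hkk))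
    · obtain ⟨a, b⟩ := hw k hk
      refine ⟨w k, a, ?_⟩
      rw [cnt_sdiff_insert (hcon.2 k (by omega)), cum_congr (B := B) fun x hx => ?_]
      · exact b
      · have : x ≠ e := fun h' => hcon.1 (by rw [← h']; omega)
        simp [this]
  obtain ⟨B', a, b, c⟩ := fin_ivp _ hfin B hBi (by rwa [union_sdiff_cancel hBX])
  rw [union_sdiff_cancel hBX] at b
  exact ⟨B', hIB.trans a, b, c⟩

end Vale.Agent.P068
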