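import Vale.Agent.P068.Ray
import Vale.Agent.P068.Defs

/-! The double ray of uniform matroids. -/

open Set Matroid

namespace Vale.Agent.P068

theorem exists_config : ∃ (U : Unif (Bool × Om)) (cI cS : Set (Bool × Om) → Prop),
    (∀ X, U.Ind X → cI X) ∧ (∀ X, U.Spn X → cS X) ∧
    (∀ X, cI X → cS Xᶜ) ∧ (∀ X, cS X → cI Xᶜ) ∧
    ∀ (inn : Bool → ℕ → Set (Bool × Om)) (lab : Bool → ℕ → Prop),
      (∀ b d, lab b d → cS (inn b d)) → (∀ b d, ¬ lab b d → cI (inn b d)) →
      (∀ b d w, (true, w) ∈ inn b d ↔ (false, w) ∉ inn (!b) (d + 1)) →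
      (∀ w, (false, w) ∈ inn true 0 ↔ (false, w) ∉ inn false 0) →
      (∀ b d w, lab b d → ¬ lab (!b) (d + 1) → (true, w) ∉ inn b d) →
      (∀ b d w, ¬ lab b d → lab (!b) (d + 1) → (true, w) ∈ inn b d) →
      (∀ b w, lab b 0 → ¬ lab (!b) 0 → (false, w) ∉ inn b 0) → False := by
  obtain ⟨U, cI, cS, a1, a2, a3, a4, a5⟩ := exists_ray
  have hc : ∀ X, pr Xᶜ = cp (pr X) := fun X => by simp [pr, cp]
  refine ⟨U, fun X => cI (pr X), fun X => cS (pr X), a1, a2, 
    fun X h => by simpa only [hc] using a3 _ h,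
    fun X h => by simpa only [hc] using a4 _ h, fun inn lab h1 h2 h3 h4 h5 h6 h7 => ?_⟩
  have key : ∀ b, lab b 0 ↔ Prod.mk false ⁻¹' inn b 0 ∈ W := fun b => by
    let β : ℕ → Bool := fun d => Nat.rec b (fun _ c => !c) d
    have hp : ∀ d, pr (inn (β d) d) =
        (Prod.mk false ⁻¹' inn (β d) d, Prod.mk false ⁻¹' inn (β (d + 1)) (d + 1)) := fun d => by
      unfold pr
      congr 1
      ext w
      simp only [mem_compl_iff, mem_preimage, h3, not_not]
      rfl
    refine a5 (fun d => Prod.mk false ⁻¹' inn (β d) d) (fun d => lab (β d) d)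
      (fun d h => hp d ▸ h1 _ _ h) (fun d h => hp d ▸ h2 _ _ h) (fun d a c => ?_) (fun d a c => ?_)
    · refine eq_univ_of_forall fun w => ?_
      have := h5 _ _ w a c
      rw [h3, not_not] at this
      exact this
    · refine eq_empty_of_forall_notMem fun w => ?_
      have := h6 _ _ w a c
      rw [h3] at this
      exact this
  have e : Prod.mk false ⁻¹' inn true 0 = (Prod.mk false ⁻¹' inn false 0)ᶜ := by
    ext w; exact h4 w
  have k1 := key true
  have k2 := key false
  rw [e, compl_W] at k1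
  by_cases h : Prod.mk false ⁻¹' inn false 0 ∈ W
  · obtain ⟨w, hw⟩ := W.nonempty_of_mem h
    exact h7 false w (k2.2 h) (fun h' => k1.1 h' h) hw
  · obtain ⟨w, hw⟩ := W.nonempty_of_mem (compl_W.2 h)
    exact h7 true w (k1.2 h) (fun h' => h (k2.1 h')) ((h4 w).2 hw)

/-- the change of coordinates between the two matroids. -/
def tau : ℕ × Bool × Om → ℕ × Bool × Om
  | (0, false, w) => (0, false, w)
  | (d + 1, false, w) => (d, true, w)
  | (d, true, w) => (d + 1, false, w)

lemma tau_inv : Function.Involutive tau := by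
  rintro ⟨_ | _ | d, _ | _, w⟩ <;> rfl

variable {A G : Type}

/-- direct sum of countably many copies of the uniform matroid, in the chart `e`. -/
def mat (U : Unif A) (e : ℕ × A ≃ G) : Matroid G :=
  (Matroid.sum' fun _ : ℕ => U.matroid).comap e.symm

/-- trace of `X` at vertex `d`. -/
def sl (e : ℕ × A ≃ G) (d : ℕ) (X : Set G) : Set A := {q | e (d, q) ∈ X}

lemma sl_mono (e : ℕ × A ≃ G) (d : ℕ) {X Y : Set G} (h : X ⊆ Y) : sl e d X ⊆ sl e d Y :=
  fun _ hq => h hq

lemma mat_E (U : Unif A) (e : ℕ × A ≃ G) : (mat U e).E = univ := by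
  refine eq_univ_of_forall fun x => ?_
  simp [mat, Unif.matroid]

lemma mat_indep (U : Unif A) (e : ℕ × A ≃ G) (X : Set G) :
    (mat U e).Indep X ↔ ∀ d, U.Ind (sl e d X) := by
  unfold mat
  rw [comap_indep_iff, sum'_indep_iff, and_iff_left e.symm.injective.injOn]
  refine forall_congr' fun d => ?_
  have : Prod.mk d ⁻¹' (e.symm '' X) = sl e d X := by
    ext q; simp [sl, Equiv.image_symm_eq_preimage]
  rw [this]
  simp [Unif.matroid]

lemma mat_closure (U : Unif A) (e : ℕ × A ≃ G) {X : Set G} {d : ℕ} {q : A}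
    (h : e (d, q) ∈ (mat U e).closure X) (hs : ¬ U.Spn (sl e d X)) : e (d, q) ∈ X := by
  by_contra hX
  obtain ⟨B, hB⟩ := (mat U e).exists_isBasis' X
  rw [← hB.closure_eq_closure, hB.indep.mem_closure_iff_of_notMem fun h => hX (hB.subset h)] at h
  refine h.not_indep ((mat_indep U e _).2 fun d' => ?_)
  have hi := (mat_indep U e _).1 hB.indep
  by_cases hd : d' = d
  · subst hd
    refine U.ind_mono (U.s1 q fun h' => hs (U.spn_mono h' (sl_mono e d' hB.subset))) ?_
    rintro q' (h' | h')
    · left; simpa using h'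
    · exact Or.inr h'
  · refine U.ind_mono (hi d') ?_
    rintro q' (h' | h')
    · simp [hd] at h'
    · exact h'

lemma Unif.eq_of_spn (U : Unif A) {X Y : Set A} (hX : U.Spn X) (hY : U.Ind Y) (h : X ⊆ Y) :
    Y ⊆ X := fun q hq => by
  by_contra hc
  exact U.s2 hc hX (U.ind_mono hY (insert_subset hq h))

/-- local consequences of a packing/covering partition. -/
lemma pc_local (U : Unif A) (e : ℕ × A ≃ G) {P C S I : Set G} (hd : Disjoint P C)
    (hu : P ∪ C = univ) (hS : S ⊆ P) (h1 : ((mat U e) ↾ P).closure S = P)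
    (h2 : (contractOnto (mat U e) C).Indep I) (d : ℕ) :
    (U.Spn (sl e d S) → ∀ q, e (d, q) ∉ I) ∧
    (¬ U.Spn (sl e d S) → (∀ q, e (d, q) ∈ P → e (d, q) ∈ S) ∧ U.Ind (sl e d (P ∪ I))) := by
  have hC : C = (mat U e)✶.E \ P := by
    rw [dual_ground, mat_E]
    ext x
    constructor
    · exact fun h => ⟨trivial, fun h' => disjoint_left.1 hd h' h⟩
    · intro h
      have : x ∈ P ∪ C := hu ▸ trivial
      exact this.resolve_left h.2
  have h3 : contractOnto (mat U e) C = (mat U e) ／ P := by rw [hC]; rfl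
  obtain ⟨B, hB⟩ := (mat U e).exists_isBasis' P
  rw [h3, hB.contract_indep_iff] at h2
  have hi := (mat_indep U e _).1 h2.1 d
  have hPB : P ⊆ (mat U e).closure B := by
    rw [hB.closure_eq_closure]; exact subset_closure _ _ (by rw [mat_E]; exact subset_univ _)
  have hPS : P ⊆ (mat U e).closure S := by
    rw [restrict_closure_eq _ hS (by rw [mat_E]; exact subset_univ _)] at h1
    rw [← h1]; exact inter_subset_left
  have hBs : ¬ U.Spn (sl e d B) → sl e d P ⊆ sl e d B :=
    fun h q hq => mat_closure U e (hPB hq) h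
  refine ⟨fun h q hq => ?_, fun h => ?_⟩
  · have h4 : U.Spn (sl e d B) := by
      by_contra hc
      exact hc (U.spn_mono h ((sl_mono e d hS).trans (hBs hc)))
    have := U.eq_of_spn h4 hi (sl_mono e d subset_union_right) (a := q) (Or.inl hq)
    exact disjoint_left.1 h2.2 (hB.subset this) hq
  · have h4 : ∀ q, e (d, q) ∈ P → e (d, q) ∈ S := fun q hq => mat_closure U e (hPS hq) h
    refine ⟨h4, U.ind_mono hi ?_⟩
    have h5 := hBs fun h' => h (U.spn_mono h' fun q hq => h4 q (hB.subset hq))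
    rintro q (hq | hq)
    · exact Or.inr (h5 hq)
    · exact Or.inl hq

theorem main : ∃ M N : Matroid ℕ, M.E = univ ∧ N.E = univ ∧
    ¬ HasPackingCovering univ ![M, N] ∧ ¬ SatisfiesIntersection univ M N := by
  obtain ⟨U, cI, cS, a1, a2, a3, a4, a5⟩ := exists_config
  obtain ⟨φ⟩ : Nonempty (ℕ × Bool × Om ≃ ℕ) := by
    have : Nonempty Om := ⟨⟨0, ∅⟩⟩
    exact nonempty_equiv_of_countable
  let ψ : ℕ × Bool × Om ≃ ℕ := tau_inv.toPerm.trans φ
  let e : Bool → (ℕ × Bool × Om ≃ ℕ) := fun b => cond b ψ φ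
  have e1 : ∀ b d w, e b (d, true, w) = e (!b) (d + 1, false, w) := by
    rintro (_ | _) (_ | d) w <;> rfl
  have e0 : ∀ b w, e b (0, false, w) = e (!b) (0, false, w) := by
    rintro (_ | _) w <;> rfl
  have fin : ∀ (A : Bool → Set ℕ) (lab : Bool → ℕ → Prop), (∀ b, A (!b) = (A b)ᶜ) →
      (∀ b d, lab b d → cS (sl (e b) d (A b))) → (∀ b d, ¬ lab b d → cI (sl (e b) d (A b))) →
      (∀ b d q d' q', e b (d, q) = e (!b) (d', q') → lab b d → ¬ lab (!b) d' →
        e b (d, q) ∉ A b) → False := by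
    intro A lab hA h1 h2 h3
    refine a5 (fun b d => sl (e b) d (A b)) lab h1 h2 (fun b d w => ?_) (fun w => ?_)
      (fun b d w a c => h3 b d _ _ _ (e1 b d w) a c) (fun b d w a c => ?_)
      (fun b w a c => h3 b 0 _ _ _ (e0 b w) a c)
    · simp only [sl, mem_setOf_eq, hA, ← e1, mem_compl_iff, not_not]
    · have := hA false
      simp only [Bool.not_false] at this
      simp only [sl, mem_setOf_eq, this, mem_compl_iff, e0 true, Bool.not_true]
    · have := h3 (!b) (d + 1) (false, w) d (true, w) (by rw [Bool.not_not, e1]) c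
        (by rwa [Bool.not_not])
      rw [hA, ← e1] at this
      exact not_not.1 this
  refine ⟨mat U φ, mat U ψ, mat_E _ _, mat_E _ _, ?_, ?_⟩
  · rintro ⟨P, C, S, I, hd, hu, hS, hI, hdj, h1, h2, h3⟩
    have L0 := pc_local U φ hd hu (hS 0) (h1 0) (h2 0)
    have L1 := pc_local U ψ hd hu (hS 1) (h1 1) (h2 1)
    have dj := disjoint_left.1 (hdj 0 1 (by decide))
    have hPC := disjoint_left.1 hd
    have hcov : ∀ x, x ∈ P ∨ x ∈ I 0 ∨ x ∈ I 1 := fun x => by
      have : x ∈ P ∪ C := hu ▸ trivial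
      rcases this with h | h
      · exact Or.inl h
      · rw [← h3, mem_iUnion, Fin.exists_fin_two] at h; exact Or.inr h
    refine fin (fun b => cond b (S 0 ∪ I 0)ᶜ (S 0 ∪ I 0))
      (fun b d => U.Spn (sl (e b) d (cond b (S 1) (S 0)))) ?_ ?_ ?_ ?_
    · rintro (_ | _)
      · rfl
      · exact (compl_compl _).symm
    · rintro (_ | _) d h
      · exact a2 _ (U.spn_mono h (sl_mono _ _ subset_union_left))
      · refine a2 _ (U.spn_mono h (sl_mono _ _ ?_))
        rintro x hx (h' | h')
        · exact dj h' hx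
        · exact hPC (hS 1 hx) (hI 0 h')
    · rintro (_ | _) d h
      · exact a1 _ (U.ind_mono ((L0 d).2 h).2 (sl_mono _ _ (union_subset_union_left _ (hS 0))))
      · refine a1 _ (U.ind_mono ((L1 d).2 h).2 (sl_mono _ _ fun x hx => ?_))
        rcases hcov x with h' | h' | h'
        · exact Or.inl h'
        · exact absurd (Or.inr h') hx
        · exact Or.inr h'
    · rintro (_ | _) d q d' q' he h h'
      · rintro (hx | hx)
        · have := ((L1 d').2 h').1 q' (by have := hS 0 hx; rwa [he] at this)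
          exact dj hx (by rw [he]; exact this)
        · exact (L0 d).1 h q hx
      · intro hx
        rcases hcov (e true (d, q)) with h'' | h'' | h''
        · have := ((L0 d').2 h').1 q' (by rwa [he] at h'')
          exact hx (Or.inl (by rw [he]; exact this))
        · exact hx (Or.inr h'')
        · exact (L1 d).1 h q h''
  · rintro ⟨J, JM, JN, h1, h2, hd, hu, h3⟩
    rw [mat_indep] at h1 h2
    have hM : JM ⊆ J := hu ▸ subset_union_left
    have hN : JN ⊆ J := hu ▸ subset_union_right
    refine fin (fun b => cond b Jᶜ J)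
      (fun b d => cond b (¬ U.Spn (sl ψ d JN)) (U.Spn (sl φ d JM))) ?_ ?_ ?_ ?_
    · rintro (_ | _)
      · rfl
      · exact (compl_compl _).symm
    · rintro (_ | _) d h
      · exact a2 _ (U.spn_mono h (sl_mono _ _ hM))
      · exact a3 _ (a1 _ (h2 d))
    · rintro (_ | _) d h
      · exact a1 _ (h1 d)
      · exact a4 _ (a2 _ (U.spn_mono (not_not.1 h) (sl_mono _ _ hN)))
    · rintro (_ | _) d q d' q' he h h'
      · intro hx
        have b1 := U.eq_of_spn h (h1 d) (sl_mono _ _ hM) (a := q) hx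
        have b2 := U.eq_of_spn (not_not.1 h') (h2 d') (sl_mono _ _ hN) (a := q')
          (by have : e false (d, q) ∈ J := hx; rwa [he] at this)
        exact disjoint_left.1 hd b1 (by have : e (!false) (d', q') ∈ JN := b2; rwa [← he] at this)
      · intro hx
        have : e true (d, q) ∈ (mat U φ).closure JM ∪ (mat U ψ).closure JN := h3 ▸ trivial
        rcases this with h'' | h''
        · rw [he] at h'' hx
          exact hx (hM (mat_closure U φ h'' h'))
        · exact hx (hN (mat_closure U ψ h'' h))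

end Vale.Agent.P068
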