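import Mathlib

/-! Blocks, counting functions and the ideal of density-zero sets. -/

open Set Filter

namespace Vale.Agent.P068

/-- A type with a partition into finite blocks indexed by `ℕ`. -/
class Blocks (E : Type) where
  blk : E → ℕ
  fin : ∀ k, {e | blk e = k}.Finite

variable {E : Type} [Blocks E]

/-- number of points of `A` in block `k`. -/
noncomputable def cnt (A : Set E) (k : ℕ) : ℕ := (A ∩ {e | Blocks.blk e = k}).ncard

/-- number of points of `A` in blocks `≤ k`. -/
noncomputable def cum (A : Set E) (k : ℕ) : ℕ := (A ∩ {e | Blocks.blk e ≤ k}).ncard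

/-- density zero. -/
def Null (A : Set E) : Prop := ∀ m : ℕ, ∀ᶠ k in atTop, m * cnt A k ≤ 2 ^ k

lemma fin_le (k : ℕ) : {e : E | Blocks.blk e ≤ k}.Finite := by
  have : {e : E | Blocks.blk e ≤ k} = ⋃ j ∈ Finset.range (k + 1), {e : E | Blocks.blk e = j} := by
    ext e; simp
  rw [this]
  exact Set.Finite.biUnion (Finset.finite_toSet _) fun j _ => Blocks.fin j

lemma fin_cnt (A : Set E) (k : ℕ) : (A ∩ {e | Blocks.blk e = k}).Finite :=
  (Blocks.fin k).subset inter_subset_right

lemma fin_cum (A : Set E) (k : ℕ) : (A ∩ {e | Blocks.blk e ≤ k}).Finite :=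
  (fin_le k).subset inter_subset_right

lemma cnt_mono {A B : Set E} (h : A ⊆ B) (k : ℕ) : cnt A k ≤ cnt B k :=
  ncard_le_ncard (inter_subset_inter_left _ h) (fin_cnt B k)

lemma cum_mono {A B : Set E} (h : A ⊆ B) (k : ℕ) : cum A k ≤ cum B k :=
  ncard_le_ncard (inter_subset_inter_left _ h) (fin_cum B k)

lemma cnt_union_le (A B : Set E) (k : ℕ) : cnt (A ∪ B) k ≤ cnt A k + cnt B k := by
  unfold cnt; rw [union_inter_distrib_right]; exact ncard_union_le _ _

lemma cum_union_le (A B : Set E) (k : ℕ) : cum (A ∪ B) k ≤ cum A k + cum B k := by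
  unfold cum; rw [union_inter_distrib_right]; exact ncard_union_le _ _

lemma cnt_le_cum (A : Set E) (k : ℕ) : cnt A k ≤ cum A k :=
  ncard_le_ncard (inter_subset_inter_right _ fun e (he : Blocks.blk e = k) => he.le) (fin_cum A k)

lemma cum_succ_le (A : Set E) (k : ℕ) : cum A (k + 1) ≤ cum A k + cnt A (k + 1) := by
  unfold cum cnt
  refine le_trans (ncard_le_ncard ?_ ((fin_cum A k).union (fin_cnt A (k + 1)))) (ncard_union_le _ _)
  rintro e ⟨h1, h2⟩
  rcases Nat.lt_or_eq_of_le (show Blocks.blk e ≤ k + 1 from h2) with h | h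
  · exact Or.inl ⟨h1, Nat.lt_succ_iff.mp h⟩
  · exact Or.inr ⟨h1, h⟩

lemma cum_congr {A B : Set E} {k : ℕ} (h : ∀ e, Blocks.blk e ≤ k → (e ∈ A ↔ e ∈ B)) :
    cum A k = cum B k := by
  unfold cum; congr 1; ext e
  exact ⟨fun ⟨a, b⟩ => ⟨(h e b).1 a, b⟩, fun ⟨a, b⟩ => ⟨(h e b).2 a, b⟩⟩

lemma cnt_congr {A B : Set E} {k : ℕ} (h : ∀ e, Blocks.blk e = k → (e ∈ A ↔ e ∈ B)) :
    cnt A k = cnt B k := by
  unfold cnt; congr 1; ext e
  exact ⟨fun ⟨a, b⟩ => ⟨(h e b).1 a, b⟩, fun ⟨a, b⟩ => ⟨(h e b).2 a, b⟩⟩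

lemma cum_insert {A : Set E} {e : E} (he : e ∉ A) {k : ℕ} (hk : Blocks.blk e ≤ k) :
    cum (insert e A) k = cum A k + 1 := by
  unfold cum
  rw [insert_inter_of_mem (show e ∈ {e : E | Blocks.blk e ≤ k} from hk),
    ncard_insert_of_notMem (fun h => he h.1) (fin_cum A k)]

lemma cum_split (A B : Set E) (k : ℕ) : cum A k = cum (A ∩ B) k + cum (A \ B) k := by
  unfold cum
  rw [← ncard_inter_add_ncard_sdiff_eq_ncard (A ∩ {e | Blocks.blk e ≤ k}) B (fin_cum A k)]
  congr 1 <;> congr 1 <;> ext e <;> simp only [mem_inter_iff, Set.mem_sdiff] <;> tauto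

lemma cnt_singleton_le (e : E) (k : ℕ) : cnt ({e} : Set E) k ≤ 1 := by
  unfold cnt
  calc _ ≤ ({e} : Set E).ncard := ncard_le_ncard inter_subset_left (finite_singleton e)
    _ = 1 := ncard_singleton e

lemma Null.mono {A B : Set E} (hB : Null B) (h : A ⊆ B) : Null A := fun m =>
  (hB m).mono fun k hk => le_trans (Nat.mul_le_mul_left m (cnt_mono h k)) hk

lemma Null.union {A B : Set E} (hA : Null A) (hB : Null B) : Null (A ∪ B) := fun m => by
  filter_upwards [hA (2 * m), hB (2 * m)] with k h1 h2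
  have := Nat.mul_le_mul_left m (cnt_union_le A B k)
  nlinarith

lemma null_empty : Null (∅ : Set E) := fun m => by
  simp [cnt]

lemma ev_le_pow (c : ℕ) : ∀ᶠ k in atTop, c ≤ 2 ^ k := by
  filter_upwards [eventually_ge_atTop c] with k hk
  exact hk.trans (Nat.lt_two_pow_self).le

lemma null_singleton (e : E) : Null ({e} : Set E) := fun m => by
  filter_upwards [ev_le_pow m] with k hk
  have := Nat.mul_le_mul_left m (cnt_singleton_le e k)
  omega

lemma null_biUnion {ι : Type} (T : Finset ι) (D : ι → Set E) (h : ∀ i ∈ T, Null (D i)) :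
    Null (⋃ i ∈ T, D i) := by
  classical
  induction T using Finset.induction_on with
  | empty => simpa using null_empty
  | insert i T hi ih =>
    rw [Finset.set_biUnion_insert]
    exact (h i (by simp)).union (ih fun j hj => h j (by simp [hj]))

lemma Null.cum {A : Set E} (hA : Null A) (m : ℕ) : ∀ᶠ k in atTop, m * cum A k ≤ 2 ^ k := by
  obtain ⟨k0, hk0⟩ := eventually_atTop.1 (hA (4 * m))
  have key : ∀ k, k0 ≤ k → 4 * m * P068.cum A k ≤ 4 * m * P068.cum A k0 + 2 ^ (k + 1) := by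
    intro k hk
    induction k, hk using Nat.le_induction with
    | base => exact Nat.le_add_right _ _
    | succ k hk ih =>
      have h1 := Nat.mul_le_mul_left (4 * m) (cum_succ_le A k)
      have h2 := hk0 (k + 1) (by omega)
      rw [Nat.mul_add] at h1
      have : 2 ^ (k + 1 + 1) = 2 ^ (k + 1) + 2 ^ (k + 1) := by ring
      omega
  filter_upwards [eventually_ge_atTop k0, ev_le_pow (4 * m * P068.cum A k0)] with k h1 h2
  have h3 := key k h1
  have : 2 ^ (k + 1) = 2 ^ k + 2 ^ k := by ring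
  nlinarith

/-- inclusion modulo density zero. -/
def Le (A B : Set E) : Prop := Null (A \ B)

lemma Le.of_subset {A B : Set E} (h : A ⊆ B) : Le A B := by
  unfold Le; rw [sdiff_eq_empty.2 h]; exact null_empty

lemma Le.rfl {A : Set E} : Le A A := Le.of_subset subset_rfl

lemma Le.trans {A B C : Set E} (h1 : Le A B) (h2 : Le B C) : Le A C :=
  (Null.union h1 h2).mono fun e ⟨a, c⟩ => by
    by_cases hb : e ∈ B
    · exact Or.inr ⟨hb, c⟩
    · exact Or.inl ⟨a, hb⟩

lemma Le.compl {A B : Set E} (h : Le A B) : Le Bᶜ Aᶜ := by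
  unfold Le at *
  convert h using 1
  ext e; simp [and_comm]

lemma le_compl_iff {A B : Set E} : Le Bᶜ Aᶜ ↔ Le A B :=
  ⟨fun h => by simpa using h.compl, Le.compl⟩

lemma le_insert_left (A : Set E) (e : E) : Le (insert e A) A :=
  (null_singleton e).mono fun x ⟨h1, h2⟩ => by
    rcases h1 with h | h
    · exact h
    · exact absurd h h2

lemma Le.union {A B C : Set E} (h1 : Le A C) (h2 : Le B C) : Le (A ∪ B) C := by
  unfold Le at *; rw [union_sdiff_distrib]; exact h1.union h2

lemma Le.inter {A B C : Set E} (h1 : Le A B) (h2 : Le A C) : Le A (B ∩ C) := by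
  unfold Le at *; rw [sdiff_inter]; exact h1.union h2

end Vale.Agent.P068
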