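import Vale.Agent.P068.Coarse
import Vale.Agent.P068.Fine

/-! The uniform matroid on two copies of `Om` and its behaviour along a ray. -/

open Set Filter

namespace Vale.Agent.P068

instance : Blocks (Bool × Om) where
  blk := fun p => Blocks.blk p.2
  fin := fun k => by
    refine ((Set.finite_univ (α := Bool)).prod (Blocks.fin (E := Om) k)).subset ?_
    rintro ⟨b, w⟩ h
    exact ⟨trivial, h⟩

lemma cnt_image (b : Bool) (A : Set Om) (k : ℕ) : cnt (Prod.mk b '' A) k = cnt A k := by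
  unfold cnt
  rw [← ncard_image_of_injective (A ∩ _) (Prod.mk_right_injective b)]
  congr 1
  ext ⟨c, w⟩
  constructor
  · rintro ⟨⟨v, h1, h2⟩, h3⟩
    cases h2
    exact ⟨w, ⟨h1, h3⟩, rfl⟩
  · rintro ⟨v, ⟨h1, h3⟩, h2⟩
    cases h2
    exact ⟨⟨w, h1, rfl⟩, h3⟩

lemma null_image (b : Bool) (A : Set Om) : Null (Prod.mk b '' A) ↔ Null A := by
  unfold Null; simp only [cnt_image]

lemma null_prod (Z : Set (Bool × Om)) :
    Null Z ↔ Null (Prod.mk false ⁻¹' Z) ∧ Null (Prod.mk true ⁻¹' Z) := by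
  rw [← null_image false, ← null_image true]
  refine ⟨fun h => ⟨h.mono (image_preimage_subset _ _), h.mono (image_preimage_subset _ _)⟩,
    fun h => (h.1.union h.2).mono ?_⟩
  rintro ⟨b, w⟩ h
  cases b
  · exact Or.inl ⟨w, h, rfl⟩
  · exact Or.inr ⟨w, h, rfl⟩

/-- the pair (inner part, complement of the outer part). -/
def pr (Z : Set (Bool × Om)) : Set Om × Set Om := (Prod.mk false ⁻¹' Z, (Prod.mk true ⁻¹' Z)ᶜ)

def un (p : Set Om × Set Om) : Set (Bool × Om) :=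
  {q | (q.1 = false ∧ q.2 ∈ p.1) ∨ (q.1 = true ∧ q.2 ∉ p.2)}

lemma pr_un (p : Set Om × Set Om) : pr (un p) = p := by
  ext w <;> simp [pr, un]

lemma le_iff_pr (Z Z' : Set (Bool × Om)) : Le Z Z' ↔ PLe (pr Z) (pr Z') := by
  unfold PLe pr
  simp only [le_compl_iff]
  unfold Le
  rw [null_prod]; rfl

def cp (p : Set Om × Set Om) : Set Om × Set Om := (p.1ᶜ, p.2ᶜ)

lemma cp_cp (p : Set Om × Set Om) : cp (cp p) = p := by simp [cp]

lemma PLe.cp {p q : Set Om × Set Om} (h : PLe p q) : PLe (cp q) (cp p) := ⟨h.1.compl, h.2.compl⟩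

lemma compl_W {A : Set Om} : Aᶜ ∈ W ↔ A ∉ W := Ultrafilter.compl_mem_iff_notMem

theorem exists_ray : ∃ (U : Unif (Bool × Om)) (cI cS : Set Om × Set Om → Prop),
    (∀ X, U.Ind X → cI (pr X)) ∧ (∀ X, U.Spn X → cS (pr X)) ∧
    (∀ p, cI p → cS (cp p)) ∧ (∀ p, cS p → cI (cp p)) ∧
    ∀ (Y : ℕ → Set Om) (lab : ℕ → Prop), (∀ d, lab d → cS (Y d, Y (d + 1))) →
      (∀ d, ¬ lab d → cI (Y d, Y (d + 1))) →
      (∀ d, lab d → ¬ lab (d + 1) → Y (d + 1) = univ) →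
      (∀ d, ¬ lab d → lab (d + 1) → Y (d + 1) = ∅) → (lab 0 ↔ Y 0 ∈ W) := by
  obtain ⟨S, hsm, hanti, hsat, hwf⟩ := exists_coarse
  let S' := S ∪ cp '' S
  have hcp : ∀ p ∈ S', cp p ∈ S' := by
    rintro p (h | ⟨q, h, rfl⟩)
    · exact Or.inr ⟨p, h, rfl⟩
    · rw [cp_cp]; exact Or.inl h
  have anti : ∀ p ∈ S', ∀ q ∈ S', PLe p q → p = q := by
    rintro p (hp | ⟨p, hp, rfl⟩) q (hq | ⟨q, hq, rfl⟩) h
    · exact hanti p hp q hq h
    · exact absurd (W_le h.2 (compl_W.2 (hsm q hq).2)) (hsm p hp).2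
    · exact absurd (W_le h.1 (compl_W.2 (hsm p hp).1)) (hsm q hq).1
    · have := h.cp
      rw [cp_cp, cp_cp] at this
      rw [hanti q hq p hp this]
  have civp : ∀ x z, PLe x z → ∃ p ∈ S', Sat p x z := by
    intro x z h
    by_cases h1 : x.1 ∉ W ∧ z.2 ∉ W
    · obtain ⟨p, hp, h'⟩ := hsat x z h h1.1 h1.2
      exact ⟨p, Or.inl hp, h'⟩
    by_cases h2 : z.1 ∈ W ∧ x.2 ∈ W
    · obtain ⟨p, hp, h'⟩ := hsat (cp z) (cp x) h.cp
        (fun h => compl_W.1 h h2.1) (fun h => compl_W.1 h h2.2)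
      refine ⟨cp p, Or.inr ⟨p, hp, rfl⟩, ?_⟩
      rcases h' with h' | h' | ⟨h', h''⟩
      · right; left; simpa [cp_cp] using h'.cp
      · left; simpa [cp_cp] using h'.cp
      · right; right; exact ⟨by simpa [cp_cp] using h''.cp, by simpa [cp_cp] using h'.cp⟩
    by_cases h3 : x.1 ∈ W
    · have h4 : x.2 ∉ W := fun h' => h2 ⟨W_le h.1 h3, h'⟩
      obtain ⟨p, hp, h'⟩ := hsat (∅, univ) x
        ⟨Le.of_subset (empty_subset _), Le.of_subset (subset_univ _)⟩ W.empty_notMem h4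
      refine ⟨p, Or.inl hp, Or.inl ?_⟩
      rcases h' with h' | h' | h'
      · exact absurd (W_le h'.2 univ_mem) (hsm p hp).2
      · exact absurd (W_le h'.1 h3) (hsm p hp).1
      · exact h'.2
    · have h4 : z.2 ∈ W := by by_contra hc; exact h1 ⟨h3, hc⟩
      have h5 : z.1 ∉ W := fun h' => h2 ⟨h', W_le h.2 h4⟩
      obtain ⟨p, hp, h'⟩ := hsat z (univ, ∅)
        ⟨Le.of_subset (subset_univ _), Le.of_subset (empty_subset _)⟩ h5 W.empty_notMem
      refine ⟨p, Or.inl hp, Or.inr (Or.inl ?_)⟩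
      rcases h' with h' | h' | h'
      · exact absurd (W_le h'.2 h4) (hsm p hp).2
      · exact absurd (W_le h'.1 univ_mem) (hsm p hp).1
      · exact h'.1
  obtain ⟨U, hU1, hU2⟩ := exists_unif (un '' S') (by
      rintro _ ⟨p, hp, rfl⟩ _ ⟨q, hq, rfl⟩ h
      rw [le_iff_pr, pr_un, pr_un] at h
      rw [anti p hp q hq h]) (by
      intro X Z h
      obtain ⟨p, hp, h'⟩ := civp _ _ ((le_iff_pr X Z).1 (Le.of_subset h))
      refine ⟨un p, ⟨p, hp, rfl⟩, ?_⟩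
      simp only [le_iff_pr, pr_un]
      exact h')
  have half : ∀ (Y : ℕ → Set Om) (lab : ℕ → Prop),
      (∀ d, lab d → ∃ p ∈ S', PLe p (Y d, Y (d + 1))) →
      (∀ d, lab d → ¬ lab (d + 1) → Y (d + 1) = univ) → lab 0 → Y 0 ∈ W := by
    intro Y lab h1 h2 h0
    by_contra hc
    have k1 : ∀ d, lab d → Y d ∉ W → ∃ p ∈ S, PLe p (Y d, Y (d + 1)) := fun d a b => by
      obtain ⟨p, hp | ⟨q, hq, rfl⟩, h⟩ := h1 d a
      · exact ⟨p, hp, h⟩
      · exact absurd (W_le h.1 (compl_W.2 (hsm q hq).1)) b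
    have k2 : ∀ d, lab d ∧ Y d ∉ W := fun d => by
      induction d with
      | zero => exact ⟨h0, hc⟩
      | succ d ih =>
        obtain ⟨p, hp, h⟩ := k1 d ih.1 ih.2
        have : Y (d + 1) ∉ W := fun h' => (hsm p hp).2 (W_le h.2 h')
        refine ⟨?_, this⟩
        by_contra hl
        exact this (h2 d ih.1 hl ▸ univ_mem)
    choose f hf hf' using fun d => k1 d (k2 d).1 (k2 d).2
    exact hwf f hf fun n => (hf' (n + 1)).1.trans (hf' n).2
  refine ⟨U, fun x => ∃ p ∈ S', PLe x p, fun x => ∃ p ∈ S', PLe p x, ?_, ?_, ?_, ?_, ?_⟩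
  · intro X hX
    obtain ⟨_, ⟨p, hp, rfl⟩, h⟩ := hU1 X hX
    rw [le_iff_pr, pr_un] at h
    exact ⟨p, hp, h⟩
  · intro X hX
    obtain ⟨_, ⟨p, hp, rfl⟩, h⟩ := hU2 X hX
    rw [le_iff_pr, pr_un] at h
    exact ⟨p, hp, h⟩
  · rintro x ⟨p, hp, h⟩; exact ⟨cp p, hcp p hp, h.cp⟩
  · rintro x ⟨p, hp, h⟩; exact ⟨cp p, hcp p hp, h.cp⟩
  · intro Y lab h1 h2 h3 h4
    refine ⟨half Y lab h1 h3, fun h => ?_⟩
    by_contra hc
    refine compl_W.1 (half (fun d => (Y d)ᶜ) (fun d => ¬ lab d) (fun d hd => ?_)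
      (fun d a b => ?_) hc) h
    · obtain ⟨p, hp, h⟩ := h2 d hd
      exact ⟨cp p, hcp p hp, h.cp⟩
    · rw [h4 d a (not_not.1 b), compl_empty]

end Vale.Agent.P068
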