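import Vale.Agent.P068.Null

/-! Fewer than continuum many positive sets can be split simultaneously. -/

open Set Filter

namespace Vale.Agent.P068

/-- The basic countable set: block `k` consists of the subsets of `Fin k`. -/
abbrev Om : Type := Σ k : ℕ, Finset (Fin k)

instance : Blocks Om where
  blk := fun w => w.1
  fin := fun k => by
    refine (Set.finite_range (fun s : Finset (Fin k) => (⟨k, s⟩ : Om))).subset ?_
    rintro ⟨j, s⟩ (h : j = k)
    subst h
    exact ⟨s, rfl⟩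

lemma cnt_eq (A : Set Om) (k : ℕ) :
    cnt A k = {s : Finset (Fin k) | (⟨k, s⟩ : Om) ∈ A}.ncard := by
  unfold cnt
  rw [← ncard_image_of_injective _
    (sigma_mk_injective (β := fun k => Finset (Fin k)) (i := k))]
  congr 1
  ext ⟨j, s⟩
  constructor
  · rintro ⟨h1, (h : j = k)⟩
    subst h
    exact ⟨s, h1, rfl⟩
  · rintro ⟨t, h1, h⟩
    cases h
    exact ⟨h1, rfl⟩

lemma not_null_univ : ¬ Null (univ : Set Om) := fun h => by
  obtain ⟨k, hk⟩ := (h 2).exists
  rw [cnt_eq] at hk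
  simp only [mem_univ, setOf_true, ncard_univ, Nat.card_eq_fintype_card, Fintype.card_finset,
    Fintype.card_fin] at hk
  have : 0 < 2 ^ k := by positivity
  omega

/-- The independent family. -/
def Zs (r : ℝ) : Set Om := {w | ∃ i ∈ w.2, (i : ℕ) = ⌊(w.1 : ℝ) * r⌋₊}

lemma card_pattern (k : ℕ) (T : Finset (Fin k)) (S : Set (Finset (Fin k)))
    (h : ∀ s ∈ S, ∀ s' ∈ S, ∀ i ∈ T, (i ∈ s ↔ i ∈ s')) : S.ncard * 2 ^ T.card ≤ 2 ^ k := by
  have h1 : S.ncard ≤ ((Tᶜ.powerset : Finset (Finset (Fin k))) : Set (Finset (Fin k))).ncard := by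
    refine ncard_le_ncard_of_injOn (fun s => s \ T) (fun s _ => ?_) ?_ (Finset.finite_toSet _)
    · simp only [Finset.coe_powerset, mem_preimage, mem_powerset_iff]
      intro i hi
      simp only [Finset.coe_sdiff, Set.mem_sdiff] at hi
      simpa using hi.2
    · intro s hs s' hs' e
      ext i
      by_cases hi : i ∈ T
      · exact h s hs s' hs' i hi
      · have : i ∈ s \ T ↔ i ∈ s' \ T := by simp only at e; rw [e]
        simpa [hi] using this
  rw [ncard_coe_finset, Finset.card_powerset, Finset.card_compl, Fintype.card_fin] at h1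
  have h2 : T.card ≤ k := by simpa using T.card_le_univ
  calc _ ≤ 2 ^ (k - T.card) * 2 ^ T.card := Nat.mul_le_mul_right _ h1
    _ = _ := by rw [← pow_add, Nat.sub_add_cancel h2]

lemma floor_ne {r r' : ℝ} (h0 : 0 ≤ r) (h : r < r') :
    ∀ᶠ k : ℕ in atTop, ⌊(k : ℝ) * r⌋₊ ≠ ⌊(k : ℝ) * r'⌋₊ := by
  have : ∀ᶠ k : ℕ in atTop, 1 / (r' - r) ≤ (k : ℝ) :=
    tendsto_natCast_atTop_atTop.eventually_ge_atTop _
  filter_upwards [this] with k hk
  rw [div_le_iff₀ (by linarith)] at hk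
  have h1 : ⌊(k : ℝ) * r + 1⌋₊ ≤ ⌊(k : ℝ) * r'⌋₊ := Nat.floor_le_floor (by linarith)
  rw [Nat.floor_add_one (by positivity)] at h1
  omega

lemma bad_finite {P : Set Om} (hP : ¬ Null P) :
    {r | r ∈ Ico (0 : ℝ) 1 ∧ (Null (P ∩ Zs r) ∨ Null (P \ Zs r))}.Finite := by
  classical
  by_contra hinf
  apply hP
  intro m
  obtain ⟨T, hT, hTc⟩ := Set.Infinite.exists_subset_card_eq hinf (2 * m)
  let D : ℝ → Set Om := fun r => if Null (P ∩ Zs r) then P ∩ Zs r else P \ Zs r
  have hD : Null (⋃ r ∈ T, D r) := null_biUnion T D fun r hr => by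
    by_cases h : Null (P ∩ Zs r)
    · simp only [D, if_pos h]; exact h
    · simp only [D, if_neg h]; exact (hT hr).2.resolve_left h
  have hinj : ∀ᶠ k : ℕ in atTop, ∀ r ∈ T, ∀ r' ∈ T, r ≠ r' → ⌊(k : ℝ) * r⌋₊ ≠ ⌊(k : ℝ) * r'⌋₊ := by
    simp only [Finset.eventually_all]
    intro r hr r' hr'
    by_cases h : r = r'
    · simp [h]
    rcases lt_or_gt_of_ne h with h' | h'
    · exact (floor_ne (hT hr).1.1 h').mono fun k hk _ => hk
    · exact (floor_ne (hT hr').1.1 h').mono fun k hk _ => hk.symm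
  filter_upwards [hD (2 * m), hinj, eventually_ge_atTop 1] with k h1 h2 hk
  have hlt : ∀ r ∈ T, ⌊(k : ℝ) * r⌋₊ < k := fun r hr => by
    have := (hT hr).1
    have hk' : (0 : ℝ) < k := by exact_mod_cast hk
    rw [Nat.floor_lt (mul_nonneg hk'.le this.1)]
    nlinarith [this.2]
  let c : T → Fin k := fun r => ⟨_, hlt r.1 r.2⟩
  have hc : Function.Injective c := fun r r' h => by
    by_contra hne
    exact h2 r.1 r.2 r'.1 r'.2 (fun h' => hne (Subtype.ext h')) (congrArg Fin.val h)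
  have hZ : ∀ (r : T) (s : Finset (Fin k)), (⟨k, s⟩ : Om) ∈ Zs r ↔ c r ∈ s := fun r s => by
    constructor
    · rintro ⟨i, hi, h⟩
      rwa [show c r = i from Fin.ext h.symm]
    · intro h; exact ⟨c r, h, rfl⟩
  have h3 := card_pattern k (Finset.univ.map ⟨c, hc⟩)
    {s | (⟨k, s⟩ : Om) ∈ P \ ⋃ r ∈ T, D r} (by
      intro s hs s' hs' i hi
      obtain ⟨r, -, rfl⟩ := Finset.mem_map.1 hi
      simp only [Function.Embedding.coeFn_mk, ← hZ]
      simp only [mem_setOf_eq, Set.mem_sdiff, mem_iUnion, not_exists] at hs hs'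
      have a := hs.2 r.1 r.2
      have b := hs'.2 r.1 r.2
      by_cases h : Null (P ∩ Zs r)
      · simp only [D, if_pos h, mem_inter_iff] at a b
        have := hs.1; have := hs'.1; tauto
      · simp only [D, if_neg h, Set.mem_sdiff] at a b
        have := hs.1; have := hs'.1; tauto)
  rw [← cnt_eq, Finset.card_map, Finset.card_univ, Fintype.card_coe, hTc] at h3
  have h4 : cnt P k ≤ cnt (P \ ⋃ r ∈ T, D r) k + cnt (⋃ r ∈ T, D r) k :=
    le_trans (cnt_mono (subset_sdiff_union _ _) k) (cnt_union_le _ _ k)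
  have h5 := Nat.mul_le_mul_left (cnt (P \ ⋃ r ∈ T, D r) k) (Nat.lt_two_pow_self (n := 2 * m)).le
  have h6 := Nat.mul_le_mul_left (2 * m) h4
  nlinarith

theorem exists_split (F : Set (Set Om)) (hF : Cardinal.mk F < Cardinal.continuum) :
    ∃ Z : Set Om, ∀ P ∈ F, ¬ Null P → ¬ Null (P ∩ Z) ∧ ¬ Null (P \ Z) := by
  by_contra hcon
  push Not at hcon
  let B : F → Set ℝ := fun P =>
    {r | ¬ Null P.1 ∧ r ∈ Ico (0 : ℝ) 1 ∧ (Null (P.1 ∩ Zs r) ∨ Null (P.1 \ Zs r))}
  have hB : ∀ P, (B P).Finite := fun P => by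
    by_cases h : Null P.1
    · simp [B, h]
    · exact (bad_finite h).subset fun r hr => hr.2
  have h1 : Ico (0 : ℝ) 1 ⊆ ⋃ P, B P := fun r hr => by
    obtain ⟨P, a, b, c⟩ := hcon (Zs r)
    exact mem_iUnion.2 ⟨⟨P, a⟩, b, hr, by tauto⟩
  have h2 := (Cardinal.mk_le_mk_of_subset h1).trans (Cardinal.mk_iUnion_le B)
  rw [Cardinal.mk_Ico_real zero_lt_one] at h2
  have h3 : ⨆ P, Cardinal.mk (B P) ≤ Cardinal.aleph0 :=
    ciSup_le' fun P => (hB P).lt_aleph0.le
  exact absurd h2 (not_le.2 (Cardinal.mul_lt_of_lt Cardinal.aleph0_le_continuum hF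
    (h3.trans_lt Cardinal.aleph0_lt_continuum)))

end Vale.Agent.P068
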